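import Vale.Agent.Lib.P328.BL.Local

/-!
# P328 / discrete Brascamp-Lieb on a slice: the chain lemma

Nodes `k = 0, ..., R` of a chain carry the data of two abstract systems at the levels `k` and
`R - k` (the second one already reversed: `b k`, `N k`, `Y k`).  Under the twisted one-level
inequalities of both systems at consecutive levels, the merged one-level inequality at level `R`
holds.  The proof sums the four one-node inequalities of `Local.lean`; the correction terms
telescope.
-/

open Finset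

namespace Vale.Agent.Lib.P328.BL

theorem chain (R : ℕ) (a ap M T b N Y : ℕ → ℝ)
    (hap0 : ap 0 = 0) (haps : ∀ k, ap (k + 1) = a k)
    (ha : ∀ k, k ≤ R → 0 < a k) (hb : ∀ k, k ≤ R → 0 < b k) (hbR : b (R + 1) = 0)
    (hA0 : 0 ≤ M 0 ^ 2 + a 0 * T 0)
    (hA : ∀ k, k < R → ∀ l : ℝ,
      0 ≤ (M (k + 1) - l * a k) ^ 2 + a (k + 1) * (T (k + 1) + 2 * l * M k - l ^ 2 * ap k))
    (hB : ∀ k, k < R → ∀ l : ℝ,
      0 ≤ (N k - l * b (k + 1)) ^ 2 + b k * (Y k + 2 * l * N (k + 1) - l ^ 2 * b (k + 2)))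
    (hB0 : 0 ≤ N R ^ 2 + b R * Y R) :
    0 ≤ (∑ k ∈ range (R + 1), a k * b k)
          * (∑ k ∈ range (R + 1), (T k * b k + a k * Y k - 2 * M k * N k))
        + (∑ k ∈ range (R + 1), (M k * b k + a k * N k)) ^ 2 := by
  rcases Nat.eq_zero_or_pos R with hR0 | hRpos
  · subst hR0
    simp only [zero_add, range_one, sum_singleton]
    exact local_single (a 0) (b 0) (M 0) (N 0) (T 0) (Y 0) (ha 0 le_rfl) (hb 0 le_rfl) hA0 hB0
  obtain ⟨r, rfl⟩ : ∃ r, R = r + 1 := ⟨R - 1, by omega⟩
  set Z : ℝ := ∑ k ∈ range (r + 1 + 1), a k * b k with hZdef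
  set H : ℝ := ∑ k ∈ range (r + 1 + 1), (M k * b k + a k * N k) with hHdef
  set S : ℝ := ∑ k ∈ range (r + 1 + 1), (T k * b k + a k * Y k - 2 * M k * N k) with hSdef
  have hZ : 0 < Z := by
    apply sum_pos
    · intro k hk
      have hk' : k ≤ r + 1 := by simpa [Nat.lt_succ_iff] using hk
      exact mul_pos (ha k hk') (hb k hk')
    · exact ⟨0, by simp⟩
  -- the increments and their running sums
  let G : ℕ → ℝ := fun k => Z * (M k * b k + a k * N k) - H * a k * b k
  let C : ℕ → ℝ := fun k => -∑ i ∈ range k, G i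
  have hC0 : C 0 = 0 := by simp [C]
  have hCs : ∀ k, C (k + 1) = C k - G k := by
    intro k
    simp only [C, sum_range_succ]
    ring
  have hGsum : ∑ k ∈ range (r + 1 + 1), G k = 0 := by
    simp only [G, sum_sub_distrib, ← mul_sum]
    have : ∑ k ∈ range (r + 1 + 1), H * a k * b k = H * Z := by
      rw [hZdef, mul_sum]
      apply sum_congr rfl
      intro k _
      ring
    rw [this, ← hHdef]
    ring
  have hCend : C (r + 1 + 1) = 0 := by
    simp only [C, hGsum, neg_zero]
  -- node terms and the shifted potential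
  let nu : ℕ → ℝ := fun k =>
    Z ^ 2 * (T k * b k + a k * Y k - 2 * M k * N k) + 2 * Z * H * (M k * b k + a k * N k)
      - H ^ 2 * a k * b k
  let pot : ℕ → ℝ := fun j =>
    (a j * b (j + 2) - ap j * b (j + 1)) * (C (j + 1) / (a j * b (j + 1))) ^ 2
      + 2 * Z * C (j + 1) * (M j / a j + N (j + 1) / b (j + 1)) - 2 * H * C (j + 1)
  -- running inequality
  have hrun : ∀ K, K ≤ r → pot K ≤ ∑ k ∈ range (K + 1), nu k := by
    intro K
    induction K with
    | zero =>
      intro _
      have h := local_first Z H (a 0) (b 0) (b 1) (b 2) (M 0) (N 0) (N 1) (T 0) (Y 0) (C 1)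
        hZ (ha 0 (by omega)) (hb 0 (by omega)) (hb 1 (by omega)) hA0
        (hB 0 (by omega)) (by rw [hCs 0, hC0])
      simp only [zero_add, range_one, sum_singleton, pot, nu, hap0]
      linarith
    | succ K ih =>
      intro hK
      have ih' := ih (by omega)
      have h := local_int Z H (ap K) (a K) (a (K + 1)) (b (K + 1)) (b (K + 2)) (b (K + 3))
        (M K) (M (K + 1)) (N (K + 1)) (N (K + 2)) (T (K + 1)) (Y (K + 1)) (C (K + 1)) (C (K + 2))
        hZ (ha K (by omega)) (ha (K + 1) (by omega)) (hb (K + 1) (by omega))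
        (hb (K + 2) (by omega)) (hA K (by omega)) (hB (K + 1) (by omega)) (hCs (K + 1))
      rw [sum_range_succ]
      simp only [pot, nu, haps] at ih' ⊢
      linarith
  have hlast := local_last Z H (ap r) (a r) (a (r + 1)) (b (r + 1)) (M r) (M (r + 1))
    (N (r + 1)) (T (r + 1)) (Y (r + 1)) (C (r + 1))
    hZ (ha r (by omega)) (ha (r + 1) le_rfl) (hb (r + 1) le_rfl) (hA r (by omega)) hB0
    (by rw [← hCs (r + 1), hCend])
  have hr := hrun r le_rfl
  have hsum : 0 ≤ ∑ k ∈ range (r + 1 + 1), nu k := by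
    rw [sum_range_succ]
    simp only [pot, nu, hbR] at hr hlast ⊢
    linarith
  have hnu : ∑ k ∈ range (r + 1 + 1), nu k = Z * (Z * S + H ^ 2) := by
    have e : ∀ k, nu k = Z ^ 2 * (T k * b k + a k * Y k - 2 * M k * N k)
        + 2 * Z * H * (M k * b k + a k * N k) - H ^ 2 * (a k * b k) := by
      intro k
      simp only [nu]
      ring
    simp only [e]
    rw [sum_sub_distrib, sum_add_distrib, ← mul_sum, ← mul_sum, ← mul_sum,
      ← hSdef, ← hHdef, ← hZdef]
    ring
  rw [hnu] at hsum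
  exact (mul_nonneg_iff_of_pos_left hZ).mp hsum

end Vale.Agent.Lib.P328.BL
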