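import Vale.Agent.Lib.P328.BL.Comb

/-!
# P328 / discrete Brascamp-Lieb on a slice: elementary facts on the level sums
-/

open Finset

namespace Vale.Agent.Lib.P328.BL

variable {ι : Type*} [Fintype ι] [DecidableEq ι]

/-- `cM` is additive under a constant shift of the variables -/
theorem cM_shift (q : ι → ℕ → ℝ) (s : ι → ℝ) (t : ℝ) (K R : ℕ) :
    cM q (fun i => s i + t) K R = cM q s K R + t * cM q (fun _ => 1) K R := by
  unfold cM
  rw [mul_sum, ← sum_add_distrib]
  apply sum_congr rfl
  intro x _
  have key : (∑ l, if 1 ≤ x l then s l + t else 0)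
      = (∑ l, if 1 ≤ x l then s l else 0) + t * (∑ l, if 1 ≤ x l then (1 : ℝ) else 0) := by
    rw [mul_sum, ← sum_add_distrib]
    apply sum_congr rfl
    intro l _
    split_ifs
    · ring
    · ring
  split_ifs
  · rw [key]
    ring
  · ring

/-- for nonnegative weights: if `cM` of the constant variables `1` vanishes, so does every `cM` -/
theorem cM_eq_zero_of_one (q : ι → ℕ → ℝ) (hq : ∀ l k, 0 ≤ q l k) (s : ι → ℝ) (K R : ℕ)
    (h : cM q (fun _ => 1) K R = 0) : cM q s K R = 0 := by
  unfold cM at h ⊢
  have hnn : ∀ x ∈ Fintype.piFinset (fun _ : ι => range (K + 1)),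
      0 ≤ (if ∑ l, x l = R then
        (∏ l, q l (x l)) * (∑ l, if 1 ≤ x l then (1 : ℝ) else 0) else 0) := by
    intro x _
    split_ifs
    · apply mul_nonneg (prod_nonneg (fun l _ => hq l (x l)))
      apply sum_nonneg
      intro l _
      split_ifs
      · exact zero_le_one
      · exact le_refl _
    · exact le_refl _
  have hz := (sum_eq_zero_iff_of_nonneg hnn).1 h
  apply sum_eq_zero
  intro x hx
  have hx0 := hz x hx
  split_ifs with hR
  · rw [if_pos hR] at hx0
    rcases mul_eq_zero.1 hx0 with h1 | h2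
    · rw [h1, zero_mul]
    · have hnn2 : ∀ l ∈ (univ : Finset ι), 0 ≤ (if 1 ≤ x l then (1 : ℝ) else 0) := by
        intro l _
        split_ifs
        · exact zero_le_one
        · exact le_refl _
      have hz2 := (sum_eq_zero_iff_of_nonneg hnn2).1 h2
      have hall : (∑ l, if 1 ≤ x l then s l else 0) = 0 := by
        apply sum_eq_zero
        intro l hl
        have hl0 := hz2 l hl
        split_ifs with h1
        · rw [if_pos h1] at hl0
          exact absurd hl0 one_ne_zero
        · rfl
      rw [hall, mul_zero]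
  · rfl

/-- for nonnegative weights: if the total weight of a level vanishes, so does `cT` -/
theorem cT_eq_zero_of_cA (q : ι → ℕ → ℝ) (hq : ∀ l k, 0 ≤ q l k) (s : ι → ℝ) (K R : ℕ)
    (h : cA q K R = 0) : cT q s K R = 0 := by
  unfold cA at h
  unfold cT
  have hnn : ∀ x ∈ Fintype.piFinset (fun _ : ι => range (K + 1)),
      0 ≤ (if ∑ l, x l = R then ∏ l, q l (x l) else 0) := by
    intro x _
    split_ifs
    · exact prod_nonneg (fun l _ => hq l (x l))
    · exact le_refl _
  have hz := (sum_eq_zero_iff_of_nonneg hnn).1 h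
  apply sum_eq_zero
  intro x hx
  have hx0 := hz x hx
  split_ifs with hR
  · rw [if_pos hR] at hx0
    rw [hx0, zero_mul]
  · rfl

theorem cA_nonneg (q : ι → ℕ → ℝ) (hq : ∀ l k, 0 ≤ q l k) (K R : ℕ) : 0 ≤ cA q K R := by
  unfold cA
  apply sum_nonneg
  intro x _
  split_ifs
  · exact prod_nonneg (fun l _ => hq l (x l))
  · exact le_refl _

end Vale.Agent.Lib.P328.BL
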