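import Vale.Agent.Lib.P328.BL.Site

/-!
# P328 / discrete Brascamp-Lieb on a slice: the level sums of a product of sites

For sites `l : ι` with weights `q l` and variables `z l`, the coefficients of the system of the
product of the site jets are the explicit sums over configurations `x : ι → ℕ` (all entries at
most `K`) of a given total.
-/

open Polynomial Finset

namespace Vale.Agent.Lib.P328.BL

variable {ι : Type*} [Fintype ι] [DecidableEq ι]

/-- total weight of the configurations with entries at most `K` and total `R` -/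
noncomputable def cA (q : ι → ℕ → ℝ) (K R : ℕ) : ℝ :=
  ∑ x ∈ Fintype.piFinset (fun _ : ι => range (K + 1)),
    if ∑ l, x l = R then ∏ l, q l (x l) else 0

/-- weighted sum of `∑_{l : x l ≥ 1} z l` over the configurations of total `R` -/
noncomputable def cM (q : ι → ℕ → ℝ) (z : ι → ℝ) (K R : ℕ) : ℝ :=
  ∑ x ∈ Fintype.piFinset (fun _ : ι => range (K + 1)),
    if ∑ l, x l = R then (∏ l, q l (x l)) * (∑ l, if 1 ≤ x l then z l else 0) else 0

/-- weighted sum of `∑_{l : x l = 1} (z l)^2 - (∑_{l : x l ≥ 1} z l)^2` over the configurations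
of total `R` -/
noncomputable def cT (q : ι → ℕ → ℝ) (z : ι → ℝ) (K R : ℕ) : ℝ :=
  ∑ x ∈ Fintype.piFinset (fun _ : ι => range (K + 1)),
    if ∑ l, x l = R then
      (∏ l, q l (x l)) * ((∑ l, if x l = 1 then z l ^ 2 else 0)
        - (∑ l, if 1 ≤ x l then z l else 0) ^ 2)
    else 0

private theorem comb_tau_eq (k : ℕ) (z : ℝ) :
    tau k z = 1 + C (C (if 1 ≤ k then z else 0)) * X +
      C (C (if 2 ≤ k then z ^ 2 / 2 else 0)) * X ^ 2 := by
  rcases k with _ | _ | k <;> simp [tau]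

private theorem comb_ofJet_site (a b : ℝ) :
    Sys.ofJet (1 + C (C a) * X + C (C b) * X ^ 2) = ⟨1, C a, -(2 * C b)⟩ := by
  ext1 <;> simp [Sys.ofJet, coeff_one, coeff_X, coeff_X_pow]

omit [Fintype ι] in
private theorem comb_ofJet_prod (s : Finset ι) (al be : ι → ℝ) :
    Sys.ofJet (∏ l ∈ s, (1 + C (C (al l)) * X + C (C (be l)) * X ^ 2)) =
      ⟨1, C (∑ l ∈ s, al l),
        C (∑ l ∈ s, ((al l) ^ 2 - 2 * be l) - (∑ l ∈ s, al l) ^ 2)⟩ := by
  induction s using Finset.induction_on with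
  | empty =>
    ext1 <;> simp [Sys.ofJet, coeff_one]
  | insert i s hi ih =>
    rw [Finset.prod_insert hi, Sys.ofJet_mul, ih, comb_ofJet_site, Finset.sum_insert hi,
      Finset.sum_insert hi]
    ext1
    · simp [Sys.merge]
    · simp only [Sys.merge, map_add]
      ring
    · simp only [Sys.merge, map_add, map_sub, map_mul, map_pow, map_ofNat]
      ring

private theorem comb_ofJet_smul (w : ℝ[X]) (P : (ℝ[X])[X]) :
    Sys.ofJet (C w * P) = ⟨w * (Sys.ofJet P).a, w * (Sys.ofJet P).M, w * (Sys.ofJet P).T⟩ := by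
  ext1
  · simp [Sys.ofJet]
  · simp [Sys.ofJet]
  · simp only [Sys.ofJet, coeff_C_mul]
    ring

private theorem comb_coeff (a r : ℝ) (n R : ℕ) :
    (C a * X ^ n * C r).coeff R = if n = R then a * r else 0 := by
  rw [coeff_mul_C, coeff_C_mul_X_pow]
  by_cases h : n = R
  · rw [if_pos h, if_pos h.symm]
  · rw [if_neg h, if_neg (fun h' => h h'.symm), zero_mul]

omit [DecidableEq ι] in
private theorem comb_term (q : ι → ℕ → ℝ) (z : ι → ℝ) (x : ι → ℕ) :
    ∏ l, (C (C (q l (x l)) * X ^ x l) * tau (x l) (z l)) =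
      C (C (∏ l, q l (x l)) * X ^ (∑ l, x l)) *
        ∏ l, (1 + C (C (if 1 ≤ x l then z l else 0)) * X +
          C (C (if 2 ≤ x l then z l ^ 2 / 2 else 0)) * X ^ 2) := by
  rw [Finset.prod_mul_distrib]
  congr 1
  · simp only [map_mul, map_prod, map_pow, Finset.prod_mul_distrib, Finset.prod_pow_eq_pow_sum]
  · exact Finset.prod_congr rfl fun l _ => comb_tau_eq (x l) (z l)

private theorem comb_sq (k : ℕ) (z : ℝ) :
    (if 1 ≤ k then z else 0) ^ 2 - 2 * (if 2 ≤ k then z ^ 2 / 2 else 0) =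
      if k = 1 then z ^ 2 else 0 := by
  rcases k with _ | _ | k
  · simp
  · simp
  · have h1 : 1 ≤ k + 1 + 1 := by omega
    have h2 : 2 ≤ k + 1 + 1 := by omega
    have h3 : ¬ (k + 1 + 1 = 1) := by omega
    rw [if_pos h1, if_pos h2, if_neg h3]
    ring

private theorem comb_ofJet_term (q : ι → ℕ → ℝ) (z : ι → ℝ) (x : ι → ℕ) :
    Sys.ofJet (∏ l, (C (C (q l (x l)) * X ^ x l) * tau (x l) (z l))) =
      ⟨C (∏ l, q l (x l)) * X ^ (∑ l, x l) * C 1,
        C (∏ l, q l (x l)) * X ^ (∑ l, x l) * C (∑ l, if 1 ≤ x l then z l else 0),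
        C (∏ l, q l (x l)) * X ^ (∑ l, x l) *
          C ((∑ l, if x l = 1 then z l ^ 2 else 0) - (∑ l, if 1 ≤ x l then z l else 0) ^ 2)⟩ := by
  rw [comb_term, comb_ofJet_smul, comb_ofJet_prod]
  have e : ∑ l, ((if 1 ≤ x l then z l else 0) ^ 2 - 2 * (if 2 ≤ x l then z l ^ 2 / 2 else 0))
      = ∑ l, if x l = 1 then z l ^ 2 else 0 :=
    Finset.sum_congr rfl fun l _ => comb_sq (x l) (z l)
  rw [e, C_1]

theorem ofJet_prod_coeff (q : ι → ℕ → ℝ) (z : ι → ℝ) (K R : ℕ) :
    (Sys.ofJet (∏ l, siteJet (q l) (z l) K)).a.coeff R = cA q K R ∧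
    (Sys.ofJet (∏ l, siteJet (q l) (z l) K)).M.coeff R = cM q z K R ∧
    (Sys.ofJet (∏ l, siteJet (q l) (z l) K)).T.coeff R = cT q z K R := by
  have hJ : ∏ l, siteJet (q l) (z l) K =
      ∑ x ∈ Fintype.piFinset (fun _ : ι => range (K + 1)),
        ∏ l, (C (C (q l (x l)) * X ^ x l) * tau (x l) (z l)) := by
    unfold siteJet
    rw [Finset.prod_univ_sum]
  have ha : ∀ (S : Finset (ι → ℕ)) (F : (ι → ℕ) → (ℝ[X])[X]),
      (Sys.ofJet (∑ x ∈ S, F x)).a = ∑ x ∈ S, (Sys.ofJet (F x)).a := by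
    intro S F
    simp [Sys.ofJet]
  have hM : ∀ (S : Finset (ι → ℕ)) (F : (ι → ℕ) → (ℝ[X])[X]),
      (Sys.ofJet (∑ x ∈ S, F x)).M = ∑ x ∈ S, (Sys.ofJet (F x)).M := by
    intro S F
    simp [Sys.ofJet]
  have hT : ∀ (S : Finset (ι → ℕ)) (F : (ι → ℕ) → (ℝ[X])[X]),
      (Sys.ofJet (∑ x ∈ S, F x)).T = ∑ x ∈ S, (Sys.ofJet (F x)).T := by
    intro S F
    simp only [Sys.ofJet, finsetSum_coeff]
    rw [Finset.mul_sum, ← Finset.sum_neg_distrib]
  refine ⟨?_, ?_, ?_⟩
  · rw [hJ, ha, finsetSum_coeff]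
    unfold cA
    refine Finset.sum_congr rfl fun x _ => ?_
    rw [comb_ofJet_term, comb_coeff, mul_one]
  · rw [hJ, hM, finsetSum_coeff]
    unfold cM
    refine Finset.sum_congr rfl fun x _ => ?_
    rw [comb_ofJet_term, comb_coeff]
  · rw [hJ, hT, finsetSum_coeff]
    unfold cT
    refine Finset.sum_congr rfl fun x _ => ?_
    rw [comb_ofJet_term, comb_coeff]

end Vale.Agent.Lib.P328.BL
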