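import Vale.Agent.Lib.P328.BL.Merge

/-!
# P328 / discrete Brascamp-Lieb on a slice: systems as 2-jets

A system is read off from the coefficients `0, 1, 2` of a polynomial in an outer variable `t`
with coefficients in `ℝ[X]`; merging is multiplication, so the system of a family of sites is
the one of a product, and the invariant passes to finite nonempty products.
-/

open Polynomial Finset

namespace Vale.Agent.Lib.P328.BL

namespace Sys

/-- the system read off from a 2-jet in the outer variable -/
noncomputable def ofJet (J : (ℝ[X])[X]) : Sys := ⟨J.coeff 0, J.coeff 1, -(2 * J.coeff 2)⟩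

theorem ofJet_mul (J J' : (ℝ[X])[X]) : ofJet (J * J') = (ofJet J).merge (ofJet J') := by
  ext1
  · simp [ofJet, merge, coeff_mul]
  · simp only [ofJet, merge, coeff_mul]
    rw [show Finset.HasAntidiagonal.antidiagonal (1 : ℕ) = {((0 : ℕ), (1 : ℕ)), (1, 0)} by decide]
    simp
    ring
  · simp only [ofJet, merge, coeff_mul]
    rw [show Finset.HasAntidiagonal.antidiagonal (2 : ℕ) = {((0 : ℕ), (2 : ℕ)), (1, 1), (2, 0)} by decide]
    simp
    ring

theorem prod_Inv {ι : Type*} (s : Finset ι) (hs : s.Nonempty) (J : ι → (ℝ[X])[X]) (K : ℕ)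
    (h : ∀ l ∈ s, (ofJet (J l)).Inv K ∧ (ofJet (J l)).Pos K) :
    (ofJet (∏ l ∈ s, J l)).Inv K ∧ (ofJet (∏ l ∈ s, J l)).Pos K := by
  induction hs using Finset.Nonempty.cons_induction with
  | singleton i =>
    simpa using h i (by simp)
  | cons i s hi hs ih =>
    have h1 := h i (by simp)
    have h2 := ih (fun l hl => h l (by simp [hl]))
    rw [prod_cons, ofJet_mul]
    exact ⟨merge_Inv h1.2 h2.2 h1.1 h2.1, merge_Pos h1.2 h2.2⟩

end Sys

end Vale.Agent.Lib.P328.BL
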