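import Vale.Agent.Lib.P328.BL.Pos

/-!
# P328 / discrete Brascamp-Lieb on a slice: capped uniform weights

The weights `q l k = eps ^ ((k - c l)^2)` are positive and log-concave for `0 < eps ≤ 1` and tend
to the indicator of `k ≤ c l` as `eps → 0`; the inequality of `Pos.lean` is a polynomial
inequality in `eps`, hence survives at `eps = 0`.
-/

open Polynomial Finset

namespace Vale.Agent.Lib.P328.BL

variable {ι : Type*} [Fintype ι] [DecidableEq ι]

private theorem cA_cont (q : ℝ → ι → ℕ → ℝ) (K R : ℕ)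
    (hq : ∀ l k, Continuous (fun e => q e l k)) :
    Continuous (fun e => cA (q e) K R) := by
  unfold cA
  refine continuous_finsetSum _ (fun x _ => ?_)
  by_cases h : ∑ l, x l = R
  · simp only [if_pos h]
    exact continuous_finsetProd _ (fun l _ => hq l (x l))
  · simp only [if_neg h]
    exact continuous_const

private theorem cM_cont (q : ℝ → ι → ℕ → ℝ) (z : ι → ℝ) (K R : ℕ)
    (hq : ∀ l k, Continuous (fun e => q e l k)) :
    Continuous (fun e => cM (q e) z K R) := by
  unfold cM
  refine continuous_finsetSum _ (fun x _ => ?_)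
  by_cases h : ∑ l, x l = R
  · simp only [if_pos h]
    exact (continuous_finsetProd _ (fun l _ => hq l (x l))).mul continuous_const
  · simp only [if_neg h]
    exact continuous_const

private theorem cT_cont (q : ℝ → ι → ℕ → ℝ) (z : ι → ℝ) (K R : ℕ)
    (hq : ∀ l k, Continuous (fun e => q e l k)) :
    Continuous (fun e => cT (q e) z K R) := by
  unfold cT
  refine continuous_finsetSum _ (fun x _ => ?_)
  by_cases h : ∑ l, x l = R
  · simp only [if_pos h]
    exact (continuous_finsetProd _ (fun l _ => hq l (x l))).mul continuous_const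
  · simp only [if_neg h]
    exact continuous_const

private theorem exp_ineq (c k : ℕ) :
    (k + 1 - c) ^ 2 * 2 ≤ (k - c) ^ 2 + (k + 2 - c) ^ 2 := by
  by_cases h : k < c
  · have h1 : k + 1 - c = 0 := by omega
    rw [h1]
    simp
  · obtain ⟨j, rfl⟩ : ∃ j, k = c + j := ⟨k - c, by omega⟩
    have e0 : c + j - c = j := by omega
    have e1 : c + j + 1 - c = j + 1 := by omega
    have e2 : c + j + 2 - c = j + 2 := by omega
    rw [e0, e1, e2]
    nlinarith

/-- the inequality for the uniform law on a box slice `{x ≤ c, ∑ x = R}` (weights = indicator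
of `x l ≤ c l`) -/
theorem E_box [Nonempty ι] (c : ι → ℕ) (z : ι → ℝ) (K R : ℕ) (hR : R ≤ K) :
    0 ≤ (cM (fun l k => if k ≤ c l then (1 : ℝ) else 0) z K R) ^ 2
        + cA (fun l k => if k ≤ c l then (1 : ℝ) else 0) K R
          * cT (fun l k => if k ≤ c l then (1 : ℝ) else 0) z K R := by
  have hq0 : (fun (l : ι) (k : ℕ) => (0 : ℝ) ^ ((k - c l) ^ 2))
      = fun l k => if k ≤ c l then (1 : ℝ) else 0 := by
    funext l k
    by_cases h : k ≤ c l
    · rw [if_pos h, Nat.sub_eq_zero_of_le h]
      norm_num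
    · rw [if_neg h]
      have h1 : k - c l ≠ 0 := by omega
      exact zero_pow (pow_ne_zero 2 h1)
  rw [← hq0]
  have hq : ∀ (l : ι) (k : ℕ), Continuous (fun e : ℝ => e ^ ((k - c l) ^ 2)) :=
    fun l k => continuous_pow _
  have hcont : Continuous (fun e : ℝ =>
      (cM (fun l k => e ^ ((k - c l) ^ 2)) z K R) ^ 2
        + cA (fun l k => e ^ ((k - c l) ^ 2)) K R
          * cT (fun l k => e ^ ((k - c l) ^ 2)) z K R) :=
    ((cM_cont (fun e l k => e ^ ((k - c l) ^ 2)) z K R hq).pow 2).add
      ((cA_cont (fun e l k => e ^ ((k - c l) ^ 2)) K R hq).mul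
        (cT_cont (fun e l k => e ^ ((k - c l) ^ 2)) z K R hq))
  have hnn : ∀ e ∈ Set.Ioo (0 : ℝ) 1,
      0 ≤ (cM (fun l k => e ^ ((k - c l) ^ 2)) z K R) ^ 2
        + cA (fun l k => e ^ ((k - c l) ^ 2)) K R
          * cT (fun l k => e ^ ((k - c l) ^ 2)) z K R := by
    intro e he
    refine E_pos _ z K R hR (fun l k _ => pow_pos he.1 _) (fun l k _ => ?_)
    show e ^ ((k - c l) ^ 2) * e ^ ((k + 2 - c l) ^ 2) ≤ (e ^ ((k + 1 - c l) ^ 2)) ^ 2
    rw [← pow_add, ← pow_mul]
    exact pow_le_pow_of_le_one he.1.le he.2.le (exp_ineq (c l) k)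
  have : (nhdsWithin (0 : ℝ) (Set.Ioo 0 1)).NeBot := left_nhdsWithin_Ioo_neBot one_pos
  exact ge_of_tendsto (hcont.continuousAt.tendsto.mono_left nhdsWithin_le_nhds)
    (eventually_nhdsWithin_of_forall hnn)

end Vale.Agent.Lib.P328.BL
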