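import Mathlib

/-!
# P328 / discrete Brascamp-Lieb on a slice: the four one-node inequalities

Pure real-variable inequalities used by the chain lemma (`Chain.lean`).
Each one is an explicit identity: the left side equals a nonnegative combination of the two
hypotheses (at an explicit value of the parameter) plus a square.
-/

namespace Vale.Agent.Lib.P328.BL

/-- interior node of the chain -/
theorem local_int (Z H am2 am1 a0 b0 b1 b2 Mm1 M0 N0 N1 T0 Y0 C0 C1 : ℝ)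
    (hZ : 0 < Z) (ham1 : 0 < am1) (ha0 : 0 < a0) (hb0 : 0 < b0) (hb1 : 0 < b1)
    (hA : ∀ l : ℝ, 0 ≤ (M0 - l * am1) ^ 2 + a0 * (T0 + 2 * l * Mm1 - l ^ 2 * am2))
    (hB : ∀ l : ℝ, 0 ≤ (N0 - l * b1) ^ 2 + b0 * (Y0 + 2 * l * N1 - l ^ 2 * b2))
    (hC : C1 = C0 - (Z * (M0 * b0 + a0 * N0) - H * a0 * b0)) :
    0 ≤ (Z ^ 2 * (T0 * b0 + a0 * Y0 - 2 * M0 * N0) + 2 * Z * H * (M0 * b0 + a0 * N0)
          - H ^ 2 * a0 * b0)
      - ((a0 * b2 - am1 * b1) * (C1 / (a0 * b1)) ^ 2 + 2 * Z * C1 * (M0 / a0 + N1 / b1)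
          - 2 * H * C1)
      + ((am1 * b1 - am2 * b0) * (C0 / (am1 * b0)) ^ 2 + 2 * Z * C0 * (Mm1 / am1 + N0 / b0)
          - 2 * H * C0) := by
  have hA' := hA (C0 / (Z * am1 * b0))
  have hB' := hB (-(C1 / (Z * a0 * b1)))
  have h1 := mul_nonneg (by positivity : (0:ℝ) ≤ Z ^ 2 * b0 / a0) hA'
  have h2 := mul_nonneg (by positivity : (0:ℝ) ≤ Z ^ 2 * a0 / b0) hB'
  have h3 : 0 ≤ am1 * b1 * (C0 / (am1 * b0) - C1 / (a0 * b1)) ^ 2 := by positivity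
  have key : (Z ^ 2 * (T0 * b0 + a0 * Y0 - 2 * M0 * N0) + 2 * Z * H * (M0 * b0 + a0 * N0)
          - H ^ 2 * a0 * b0)
      - ((a0 * b2 - am1 * b1) * (C1 / (a0 * b1)) ^ 2 + 2 * Z * C1 * (M0 / a0 + N1 / b1)
          - 2 * H * C1)
      + ((am1 * b1 - am2 * b0) * (C0 / (am1 * b0)) ^ 2 + 2 * Z * C0 * (Mm1 / am1 + N0 / b0)
          - 2 * H * C0)
      = Z ^ 2 * b0 / a0 * ((M0 - C0 / (Z * am1 * b0) * am1) ^ 2
            + a0 * (T0 + 2 * (C0 / (Z * am1 * b0)) * Mm1 - (C0 / (Z * am1 * b0)) ^ 2 * am2))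
        + Z ^ 2 * a0 / b0 * ((N0 - -(C1 / (Z * a0 * b1)) * b1) ^ 2
            + b0 * (Y0 + 2 * -(C1 / (Z * a0 * b1)) * N1 - (-(C1 / (Z * a0 * b1))) ^ 2 * b2))
        + am1 * b1 * (C0 / (am1 * b0) - C1 / (a0 * b1)) ^ 2 := by
    subst hC
    field_simp
    ring
  rw [key]
  linarith

/-- first node of a chain with at least two nodes (`C0 = 0`, nothing below) -/
theorem local_first (Z H a0 b0 b1 b2 M0 N0 N1 T0 Y0 C1 : ℝ)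
    (hZ : 0 < Z) (ha0 : 0 < a0) (hb0 : 0 < b0) (hb1 : 0 < b1)
    (hA : 0 ≤ M0 ^ 2 + a0 * T0)
    (hB : ∀ l : ℝ, 0 ≤ (N0 - l * b1) ^ 2 + b0 * (Y0 + 2 * l * N1 - l ^ 2 * b2))
    (hC : C1 = 0 - (Z * (M0 * b0 + a0 * N0) - H * a0 * b0)) :
    0 ≤ (Z ^ 2 * (T0 * b0 + a0 * Y0 - 2 * M0 * N0) + 2 * Z * H * (M0 * b0 + a0 * N0)
          - H ^ 2 * a0 * b0)
      - ((a0 * b2 - 0 * b1) * (C1 / (a0 * b1)) ^ 2 + 2 * Z * C1 * (M0 / a0 + N1 / b1)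
          - 2 * H * C1) := by
  have hB' := hB (-(C1 / (Z * a0 * b1)))
  have h1 := mul_nonneg (by positivity : (0:ℝ) ≤ Z ^ 2 * b0 / a0) hA
  have h2 := mul_nonneg (by positivity : (0:ℝ) ≤ Z ^ 2 * a0 / b0) hB'
  have key : (Z ^ 2 * (T0 * b0 + a0 * Y0 - 2 * M0 * N0) + 2 * Z * H * (M0 * b0 + a0 * N0)
          - H ^ 2 * a0 * b0)
      - ((a0 * b2 - 0 * b1) * (C1 / (a0 * b1)) ^ 2 + 2 * Z * C1 * (M0 / a0 + N1 / b1)
          - 2 * H * C1)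
      = Z ^ 2 * b0 / a0 * (M0 ^ 2 + a0 * T0)
        + Z ^ 2 * a0 / b0 * ((N0 - -(C1 / (Z * a0 * b1)) * b1) ^ 2
            + b0 * (Y0 + 2 * -(C1 / (Z * a0 * b1)) * N1 - (-(C1 / (Z * a0 * b1))) ^ 2 * b2)) := by
    subst hC
    field_simp
    ring
  rw [key]
  linarith

/-- last node of a chain with at least two nodes (`C1 = 0`, nothing above) -/
theorem local_last (Z H am2 am1 a0 b0 Mm1 M0 N0 T0 Y0 C0 : ℝ)
    (hZ : 0 < Z) (ham1 : 0 < am1) (ha0 : 0 < a0) (hb0 : 0 < b0)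
    (hA : ∀ l : ℝ, 0 ≤ (M0 - l * am1) ^ 2 + a0 * (T0 + 2 * l * Mm1 - l ^ 2 * am2))
    (hB : 0 ≤ N0 ^ 2 + b0 * Y0)
    (hC : 0 = C0 - (Z * (M0 * b0 + a0 * N0) - H * a0 * b0)) :
    0 ≤ (Z ^ 2 * (T0 * b0 + a0 * Y0 - 2 * M0 * N0) + 2 * Z * H * (M0 * b0 + a0 * N0)
          - H ^ 2 * a0 * b0)
      + ((am1 * 0 - am2 * b0) * (C0 / (am1 * b0)) ^ 2 + 2 * Z * C0 * (Mm1 / am1 + N0 / b0)
          - 2 * H * C0) := by
  have hA' := hA (C0 / (Z * am1 * b0))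
  have h1 := mul_nonneg (by positivity : (0:ℝ) ≤ Z ^ 2 * b0 / a0) hA'
  have h2 := mul_nonneg (by positivity : (0:ℝ) ≤ Z ^ 2 * a0 / b0) hB
  have hC0 : C0 = Z * (M0 * b0 + a0 * N0) - H * a0 * b0 := by linarith
  have key : (Z ^ 2 * (T0 * b0 + a0 * Y0 - 2 * M0 * N0) + 2 * Z * H * (M0 * b0 + a0 * N0)
          - H ^ 2 * a0 * b0)
      + ((am1 * 0 - am2 * b0) * (C0 / (am1 * b0)) ^ 2 + 2 * Z * C0 * (Mm1 / am1 + N0 / b0)
          - 2 * H * C0)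
      = Z ^ 2 * b0 / a0 * ((M0 - C0 / (Z * am1 * b0) * am1) ^ 2
            + a0 * (T0 + 2 * (C0 / (Z * am1 * b0)) * Mm1 - (C0 / (Z * am1 * b0)) ^ 2 * am2))
        + Z ^ 2 * a0 / b0 * (N0 ^ 2 + b0 * Y0) := by
    subst hC0
    field_simp
    ring
  rw [key]
  linarith

/-- a chain with a single node -/
theorem local_single (a0 b0 M0 N0 T0 Y0 : ℝ)
    (ha0 : 0 < a0) (hb0 : 0 < b0)
    (hA : 0 ≤ M0 ^ 2 + a0 * T0) (hB : 0 ≤ N0 ^ 2 + b0 * Y0) :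
    0 ≤ (a0 * b0) * (T0 * b0 + a0 * Y0 - 2 * M0 * N0) + (M0 * b0 + a0 * N0) ^ 2 := by
  have h1 := mul_nonneg (by positivity : (0:ℝ) ≤ b0 ^ 2) hA
  have h2 := mul_nonneg (by positivity : (0:ℝ) ≤ a0 ^ 2) hB
  nlinarith

end Vale.Agent.Lib.P328.BL
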