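import Vale.Agent.Lib.P328.BL.Sys

/-!
# P328 / discrete Brascamp-Lieb on a slice: the invariant is stable under merging
-/

open Polynomial Finset

namespace Vale.Agent.Lib.P328.BL

theorem coeff_mul_range (p q : ℝ[X]) (R : ℕ) :
    (p * q).coeff R
      = ∑ k ∈ range (R + 1), p.coeff k * (if k ≤ R then q.coeff (R - k) else 0) := by
  rw [coeff_mul, Finset.Nat.sum_antidiagonal_eq_sum_range_succ_mk]
  apply sum_congr rfl
  intro k hk
  rw [if_pos (by simpa [Nat.lt_succ_iff] using hk)]

theorem coeff_two_mul_mul (p q : ℝ[X]) (R : ℕ) :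
    (2 * p * q).coeff R = 2 * (p * q).coeff R := by
  rw [mul_assoc, two_mul, coeff_add]
  ring

namespace Sys

theorem merge_E {S S' : Sys} {K : ℕ} (hp : S.Pos K) (hp' : S'.Pos K)
    (hI : S.Inv K) (hI' : S'.Inv K) : ∀ R, R ≤ K → (S.merge S').E R := by
  intro R hR
  have hA0 : 0 ≤ (S.M.coeff 0) ^ 2 + S.a.coeff 0 * S.T.coeff 0 := hI.E 0 (Nat.zero_le _)
  have hB0 : 0 ≤ (S'.M.coeff 0) ^ 2 + S'.a.coeff 0 * S'.T.coeff 0 := hI'.E 0 (Nat.zero_le _)
  have h := chain R (fun k => S.a.coeff k) (fun k => (X * S.a).coeff k)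
    (fun k => S.M.coeff k) (fun k => S.T.coeff k)
    (fun k => if k ≤ R then S'.a.coeff (R - k) else 0)
    (fun k => if k ≤ R then S'.M.coeff (R - k) else 0)
    (fun k => if k ≤ R then S'.T.coeff (R - k) else 0)
    (by simp) (fun k => by simp)
    (fun k hk => hp k (hk.trans hR))
    (fun k hk => by
      simp only [if_pos hk]
      exact hp' _ ((Nat.sub_le R k).trans hR))
    (by simp) hA0
    (fun k hk l => by
      have := (twist_E_succ S l k).mp (hI l (k + 1) (by omega))
      exact this)
    (fun k hk l => by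
      have hj : R - k = (R - k - 1) + 1 := by omega
      have h1 := hI' l (R - k) ((Nat.sub_le R k).trans hR)
      rw [hj] at h1
      have h2 := (twist_E_succ S' l (R - k - 1)).mp h1
      rw [← hj] at h2
      have e1 : R - (k + 1) = R - k - 1 := by omega
      simp only [if_pos hk.le, if_pos (Nat.succ_le_of_lt hk), e1]
      by_cases hk2 : k + 2 ≤ R
      · have e2 : R - k - 1 = (R - (k + 2)) + 1 := by omega
        have e3 : (X * S'.a).coeff (R - k - 1) = S'.a.coeff (R - (k + 2)) := by
          rw [e2, coeff_X_mul]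
        rw [e3] at h2
        simp only [if_pos hk2]
        exact h2
      · have e2 : R - k - 1 = 0 := by omega
        have e3 : (X * S'.a).coeff (R - k - 1) = 0 := by
          rw [e2, coeff_X_mul_zero]
        rw [e3] at h2
        simp only [if_neg hk2]
        exact h2)
    (by simpa using hB0)
  -- rewrite the conclusion in terms of coefficients of the merged system
  have ea : (S.merge S').a.coeff R
      = ∑ k ∈ range (R + 1), S.a.coeff k * (if k ≤ R then S'.a.coeff (R - k) else 0) := by
    simp only [merge, coeff_mul_range]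
  have eM : (S.merge S').M.coeff R
      = ∑ k ∈ range (R + 1), (S.M.coeff k * (if k ≤ R then S'.a.coeff (R - k) else 0)
          + S.a.coeff k * (if k ≤ R then S'.M.coeff (R - k) else 0)) := by
    simp only [merge, coeff_add, coeff_mul_range, sum_add_distrib]
  have eT : (S.merge S').T.coeff R
      = ∑ k ∈ range (R + 1), (S.T.coeff k * (if k ≤ R then S'.a.coeff (R - k) else 0)
          + S.a.coeff k * (if k ≤ R then S'.T.coeff (R - k) else 0)
          - 2 * S.M.coeff k * (if k ≤ R then S'.M.coeff (R - k) else 0)) := by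
    show (S.T * S'.a + S.a * S'.T - 2 * S.M * S'.M).coeff R = _
    rw [coeff_sub, coeff_add, coeff_two_mul_mul, coeff_mul_range, coeff_mul_range,
      coeff_mul_range, mul_sum, ← sum_add_distrib, ← sum_sub_distrib]
    apply sum_congr rfl
    intro k _
    ring
  unfold E
  rw [ea, eM, eT]
  linarith

theorem merge_Pos {S S' : Sys} {K : ℕ} (hp : S.Pos K) (hp' : S'.Pos K) :
    (S.merge S').Pos K := by
  intro R hR
  show 0 < (S.a * S'.a).coeff R
  rw [coeff_mul_range]
  apply sum_pos
  · intro k hk
    have hk' : k ≤ R := by simpa [Nat.lt_succ_iff] using hk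
    rw [if_pos hk']
    exact mul_pos (hp k (hk'.trans hR)) (hp' _ ((Nat.sub_le R k).trans hR))
  · exact ⟨0, by simp⟩

theorem merge_Inv {S S' : Sys} {K : ℕ} (hp : S.Pos K) (hp' : S'.Pos K)
    (hI : S.Inv K) (hI' : S'.Inv K) : (S.merge S').Inv K := by
  intro l R hR
  rw [twist_merge]
  exact merge_E (S := S.twist l) (fun k hk => hp k hk) hp' (hI.twist l) hI' R hR

end Sys

end Vale.Agent.Lib.P328.BL
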