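import Vale.Agent.Lib.P328.BL.Comb

/-!
# P328 / discrete Brascamp-Lieb on a slice: sums over removable pairs

`pairF u s = (∑_{i : u i ≥ 1} s i)^2 - ∑_{i : u i = 1} (s i)^2` is the sum of `s i * s j` over the
ordered pairs `(i, j)` that can be removed from `u` (one unit at `i` and one unit at `j`).
-/

open Finset

namespace Vale.Agent.Lib.P328.BL

variable {ι : Type*} [Fintype ι] [DecidableEq ι]

/-- `(∑_{i : u i ≥ 1} s i)^2 - ∑_{i : u i = 1} (s i)^2` -/
noncomputable def pairF (u : ι → ℕ) (s : ι → ℝ) : ℝ :=
  (∑ i, if 1 ≤ u i then s i else 0) ^ 2 - ∑ i, if u i = 1 then s i ^ 2 else 0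

omit [Fintype ι] in
/-- the removable pairs: two distinct sites with a unit each, or one site with two units -/
private lemma pair_cond (u : ι → ℕ) (i j : ι) :
    (∀ l, (if l = i then 1 else 0) + (if l = j then 1 else 0) ≤ u l) ↔
      (i ≠ j ∧ 1 ≤ u i ∧ 1 ≤ u j) ∨ (i = j ∧ 2 ≤ u i) := by
  constructor
  · intro h
    have hi := h i
    have hj := h j
    by_cases hij : i = j
    · subst hij
      right
      rw [if_pos rfl] at hi
      exact ⟨rfl, by omega⟩
    · left
      have hji : ¬ j = i := fun h => hij h.symm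
      rw [if_pos rfl, if_neg hij] at hi
      rw [if_pos rfl, if_neg hji] at hj
      exact ⟨hij, by omega, by omega⟩
  · rintro (⟨hij, h1, h2⟩ | ⟨rfl, h2⟩) l
    · by_cases hli : l = i
      · subst hli
        rw [if_pos rfl, if_neg hij]
        omega
      · by_cases hlj : l = j
        · subst hlj
          rw [if_neg hli, if_pos rfl]
          omega
        · rw [if_neg hli, if_neg hlj]
          omega
    · by_cases hli : l = i
      · subst hli
        rw [if_pos rfl]
        omega
      · rw [if_neg hli]
        omega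

/-- the summand of `pair_sum` in product form -/
private lemma pair_term (u : ι → ℕ) (s : ι → ℝ) (i j : ι) :
    (if ∀ l, (if l = i then 1 else 0) + (if l = j then 1 else 0) ≤ u l
        then s i * s j else 0) =
      (if 1 ≤ u i then s i else 0) * (if 1 ≤ u j then s j else 0) -
        (if i = j then (if u i = 1 then s i ^ 2 else 0) else 0) := by
  by_cases hij : i = j
  · subst hij
    have hc : (∀ l, (if l = i then 1 else 0) + (if l = i then 1 else 0) ≤ u l) ↔ 2 ≤ u i := by
      rw [pair_cond]
      constructor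
      · rintro (⟨h, -⟩ | ⟨-, h⟩)
        · exact absurd rfl h
        · exact h
      · intro h
        exact Or.inr ⟨rfl, h⟩
    rw [if_pos rfl]
    by_cases h2 : 2 ≤ u i
    · rw [if_pos (hc.mpr h2), if_pos (by omega : 1 ≤ u i), if_neg (by omega : ¬ u i = 1)]
      ring
    · rw [if_neg (fun h => h2 (hc.mp h))]
      by_cases h1 : u i = 1
      · rw [if_pos (by omega : 1 ≤ u i), if_pos h1]
        ring
      · rw [if_neg (by omega : ¬ 1 ≤ u i), if_neg h1]
        ring
  · have hc : (∀ l, (if l = i then 1 else 0) + (if l = j then 1 else 0) ≤ u l) ↔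
        (1 ≤ u i ∧ 1 ≤ u j) := by
      rw [pair_cond]
      constructor
      · rintro (⟨-, h⟩ | ⟨h, -⟩)
        · exact h
        · exact absurd h hij
      · intro h
        exact Or.inl ⟨hij, h⟩
    rw [if_neg hij, sub_zero]
    by_cases h1 : 1 ≤ u i
    · by_cases h2 : 1 ≤ u j
      · rw [if_pos (hc.mpr ⟨h1, h2⟩), if_pos h1, if_pos h2]
      · rw [if_neg (fun h => h2 (hc.mp h).2), if_neg h2, mul_zero]
    · rw [if_neg (fun h => h1 (hc.mp h).1), if_neg h1, zero_mul]

/-- sum over the removable ordered pairs -/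
theorem pair_sum (u : ι → ℕ) (s : ι → ℝ) :
    ∑ i, ∑ j, (if ∀ l, (if l = i then 1 else 0) + (if l = j then 1 else 0) ≤ u l
        then s i * s j else 0) = pairF u s := by
  simp only [pair_term]
  unfold pairF
  simp only [Finset.sum_sub_distrib]
  rw [sq, Finset.sum_mul_sum]
  congr 1
  refine Finset.sum_congr rfl fun i _ => ?_
  rw [Finset.sum_ite_eq]
  simp

end Vale.Agent.Lib.P328.BL
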