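import Vale.Agent.Lib.P328.BL.Comb

/-!
# P328 / discrete Brascamp-Lieb on a slice: the inequality for positive log-concave weights
-/

open Polynomial Finset

namespace Vale.Agent.Lib.P328.BL

variable {ι : Type*} [Fintype ι] [DecidableEq ι]

/-- For site weights that are positive and log-concave on `[0, K]`, at every level `R ≤ K`:
`(∑ w z(S))^2 + (∑ w) (∑ w (z^2(S_1) - z(S)^2)) ≥ 0`, i.e.
`Var (∑_{l : x l ≥ 1} z l) ≤ E ∑_{l : x l = 1} (z l)^2` for the law `∏ q l (x l)` on the slice. -/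
theorem E_pos [Nonempty ι] (q : ι → ℕ → ℝ) (z : ι → ℝ) (K R : ℕ) (hR : R ≤ K)
    (hpos : ∀ l k, k ≤ K → 0 < q l k)
    (hlc : ∀ l k, k + 2 ≤ K → q l k * q l (k + 2) ≤ q l (k + 1) ^ 2) :
    0 ≤ (cM q z K R) ^ 2 + cA q K R * cT q z K R := by
  have h := Sys.prod_Inv (Finset.univ : Finset ι) Finset.univ_nonempty
    (fun l => siteJet (q l) (z l) K) K
    (fun l _ => site_Inv (q l) (z l) K (hpos l) (hlc l))
  have hE := h.1.E R hR
  obtain ⟨ea, eM, eT⟩ := ofJet_prod_coeff q z K R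
  unfold Sys.E at hE
  rw [ea, eM, eT] at hE
  exact hE

end Vale.Agent.Lib.P328.BL
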