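import Vale.Agent.Lib.P328.BL.PairSum

/-!
# P328 / discrete Brascamp-Lieb on a slice: reflection of a box

The reflection `x ↦ c - x` of the box `{x ≤ c}` maps the slice `∑ x = R` onto the slice
`∑ y = ∑ c - R`; the sum of `pairF (c - x)` over the first is `- cT` of the indicator weights at
the second.
-/

open Finset

namespace Vale.Agent.Lib.P328.BL

variable {ι : Type*} [Fintype ι] [DecidableEq ι]

/-- membership in the box `{x ≤ c}` -/
private lemma reflect_mem_box (c x : ι → ℕ) :
    x ∈ Fintype.piFinset (fun l : ι => range (c l + 1)) ↔ ∀ l, x l ≤ c l := by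
  rw [Fintype.mem_piFinset]
  refine forall_congr' (fun l => ?_)
  rw [mem_range, Nat.lt_succ_iff]

/-- the reflection `x ↦ c - x` maps the slice of total `R` of the box onto the slice of total
`∑ c - R` -/
private lemma reflect_slice (c : ι → ℕ) (R : ℕ) (hR : R ≤ ∑ l, c l) (s : ι → ℝ) :
    ∑ x ∈ Fintype.piFinset (fun l : ι => range (c l + 1)),
        (if ∑ l, x l = R then pairF (fun l => c l - x l) s else 0)
      = ∑ y ∈ Fintype.piFinset (fun l : ι => range (c l + 1)),
        (if ∑ l, y l = ∑ l, c l - R then pairF y s else 0) := by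
  refine Finset.sum_nbij' (fun x l => c l - x l) (fun y l => c l - y l) ?_ ?_ ?_ ?_ ?_
  · intro x _
    rw [reflect_mem_box]
    intro l
    exact Nat.sub_le _ _
  · intro y _
    rw [reflect_mem_box]
    intro l
    exact Nat.sub_le _ _
  · intro x hx
    rw [reflect_mem_box] at hx
    funext l
    exact Nat.sub_sub_self (hx l)
  · intro y hy
    rw [reflect_mem_box] at hy
    funext l
    exact Nat.sub_sub_self (hy l)
  · intro x hx
    rw [reflect_mem_box] at hx
    have hsum : ∑ l, (c l - x l) + ∑ l, x l = ∑ l, c l := by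
      rw [← Finset.sum_add_distrib]
      exact Finset.sum_congr rfl (fun l _ => Nat.sub_add_cancel (hx l))
    show (if ∑ l, x l = R then pairF (fun l => c l - x l) s else 0)
      = (if ∑ l, (c l - x l) = ∑ l, c l - R then pairF (fun l => c l - x l) s else 0)
    by_cases h : ∑ l, x l = R
    · have h' : ∑ l, (c l - x l) = ∑ l, c l - R := by omega
      rw [if_pos h, if_pos h']
    · have h' : ¬ (∑ l, (c l - x l) = ∑ l, c l - R) := by omega
      rw [if_neg h, if_neg h']

theorem reflect_sum (c : ι → ℕ) (R : ℕ) (hR : R ≤ ∑ l, c l) (s : ι → ℝ) :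
    ∑ x ∈ Fintype.piFinset (fun l : ι => range (c l + 1)),
        (if ∑ l, x l = R then pairF (fun l => c l - x l) s else 0)
      = - cT (fun l k => if k ≤ c l then (1 : ℝ) else 0) s (∑ l, c l) (∑ l, c l - R) := by
  rw [reflect_slice c R hR s]
  unfold cT
  rw [← Finset.sum_neg_distrib]
  have hsub : Fintype.piFinset (fun l : ι => range (c l + 1))
      ⊆ Fintype.piFinset (fun _ : ι => range (∑ l, c l + 1)) := by
    intro y hy
    rw [reflect_mem_box c y] at hy
    rw [Fintype.mem_piFinset]
    intro l
    rw [mem_range, Nat.lt_succ_iff]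
    exact (hy l).trans (Finset.single_le_sum (f := c) (fun _ _ => Nat.zero_le _) (mem_univ l))
  refine Finset.sum_subset_zero_on_sdiff hsub ?_ ?_
  · intro y hy
    have h2 := (mem_sdiff.mp hy).2
    rw [reflect_mem_box c y] at h2
    obtain ⟨l, hl⟩ := not_forall.mp h2
    have hprod : ∏ l, (if y l ≤ c l then (1 : ℝ) else 0) = 0 :=
      Finset.prod_eq_zero (mem_univ l) (if_neg hl)
    rw [hprod, zero_mul, ite_self, neg_zero]
  · intro y hy
    rw [reflect_mem_box c y] at hy
    have hprod : ∏ l, (if y l ≤ c l then (1 : ℝ) else 0) = 1 :=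
      Finset.prod_eq_one (fun l _ => if_pos (hy l))
    rw [hprod, one_mul]
    by_cases h : ∑ l, y l = ∑ l, c l - R
    · rw [if_pos h, if_pos h]
      unfold pairF
      ring
    · rw [if_neg h, if_neg h, neg_zero]

end Vale.Agent.Lib.P328.BL
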