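import Vale.Agent.Lib.P328.BL.Jet

/-!
# P328 / discrete Brascamp-Lieb on a slice: one site

One site with weights `q k` on the occupations `k = 0, ..., K` and a real variable `z`.
Its 2-jet is `∑ k, q k X^k (1 + z t [k ≥ 1] + z^2 t^2 / 2 [k ≥ 2])`.
The invariant holds when `q` is positive and log-concave on `[0, K]`.
-/

open Polynomial Finset

namespace Vale.Agent.Lib.P328.BL

/-- the 2-jet of a site at occupation `k`: `1`, `1 + z t`, `1 + z t + z^2 t^2 / 2` -/
noncomputable def tau (k : ℕ) (z : ℝ) : (ℝ[X])[X] :=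
  if k = 0 then 1 else if k = 1 then 1 + C (C z) * X
  else 1 + C (C z) * X + C (C (z ^ 2 / 2)) * X ^ 2

/-- the 2-jet of one site -/
noncomputable def siteJet (q : ℕ → ℝ) (z : ℝ) (K : ℕ) : (ℝ[X])[X] :=
  ∑ k ∈ range (K + 1), C (C (q k) * X ^ k) * tau k z

private theorem tau_coeff_zero (k : ℕ) (z : ℝ) : (tau k z).coeff 0 = 1 := by
  rcases k with _ | _ | k
  · simp [tau]
  · simp [tau]
  · simp [tau]

private theorem tau_coeff_one (k : ℕ) (z : ℝ) :
    (tau k z).coeff 1 = if 1 ≤ k then C z else 0 := by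
  rcases k with _ | _ | k
  · simp [tau, coeff_one]
  · simp [tau, coeff_one]
  · simp [tau, coeff_one, coeff_X_pow]

private theorem tau_coeff_two (k : ℕ) (z : ℝ) :
    (tau k z).coeff 2 = if 2 ≤ k then C (z ^ 2 / 2) else 0 := by
  rcases k with _ | _ | k
  · simp [tau, coeff_one]
  · simp [tau, coeff_one]
  · simp [tau, coeff_one]

private theorem site_a_coeff (q : ℕ → ℝ) (z : ℝ) (K j : ℕ) (hj : j ≤ K) :
    (Sys.ofJet (siteJet q z K)).a.coeff j = q j := by
  simp only [Sys.ofJet, siteJet, finsetSum_coeff, coeff_C_mul, tau_coeff_zero, mul_one,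
    coeff_X_pow, mul_ite, mul_zero]
  rw [Finset.sum_ite_eq]
  simp [Nat.lt_succ_of_le hj]

private theorem site_M_coeff (q : ℕ → ℝ) (z : ℝ) (K j : ℕ) (hj : j ≤ K) :
    (Sys.ofJet (siteJet q z K)).M.coeff j = if 1 ≤ j then z * q j else 0 := by
  simp only [Sys.ofJet, siteJet, finsetSum_coeff, coeff_C_mul, tau_coeff_one]
  have h : ∀ k ∈ range (K + 1),
      ((C (q k) * X ^ k) * (if 1 ≤ k then C z else 0) : ℝ[X]).coeff j
        = if j = k then (if 1 ≤ j then z * q j else 0) else 0 := by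
    intro k _
    by_cases hk : 1 ≤ k
    · rw [if_pos hk]
      have e : (C (q k) * X ^ k) * C z = C (q k * z) * X ^ k := by
        rw [C_mul]
        ring
      rw [e, coeff_C_mul_X_pow]
      by_cases hjk : j = k
      · subst hjk
        simp [hk, mul_comm]
      · simp [hjk]
    · rw [if_neg hk]
      by_cases hjk : j = k
      · subst hjk
        simp [hk]
      · simp [hjk]
  rw [Finset.sum_congr rfl h, Finset.sum_ite_eq]
  simp [Nat.lt_succ_of_le hj]

private theorem site_T_coeff (q : ℕ → ℝ) (z : ℝ) (K j : ℕ) (hj : j ≤ K) :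
    (Sys.ofJet (siteJet q z K)).T.coeff j = if 2 ≤ j then -(z ^ 2 * q j) else 0 := by
  simp only [Sys.ofJet, siteJet, finsetSum_coeff, coeff_C_mul, tau_coeff_two, coeff_neg]
  have h : ∀ k ∈ range (K + 1),
      ((C (q k) * X ^ k) * (if 2 ≤ k then C (z ^ 2 / 2) else 0) : ℝ[X]).coeff j
        = if j = k then (if 2 ≤ j then z ^ 2 / 2 * q j else 0) else 0 := by
    intro k _
    by_cases hk : 2 ≤ k
    · rw [if_pos hk]
      have e : (C (q k) * X ^ k) * C (z ^ 2 / 2) = C (q k * (z ^ 2 / 2)) * X ^ k := by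
        rw [C_mul (a := q k)]
        ring
      rw [e, coeff_C_mul_X_pow]
      by_cases hjk : j = k
      · subst hjk
        simp [hk, mul_comm]
      · simp [hjk]
    · rw [if_neg hk]
      by_cases hjk : j = k
      · subst hjk
        simp [hk]
      · simp [hjk]
  have h2 : ((2 : ℝ[X]) * ∑ k ∈ range (K + 1),
      (C (q k) * X ^ k) * (if 2 ≤ k then C (z ^ 2 / 2) else 0)).coeff j
      = 2 * (∑ k ∈ range (K + 1),
      ((C (q k) * X ^ k) * (if 2 ≤ k then C (z ^ 2 / 2) else 0) : ℝ[X]).coeff j) := by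
    rw [← map_ofNat C 2, coeff_C_mul, finsetSum_coeff]
  rw [h2, Finset.sum_congr rfl h, Finset.sum_ite_eq]
  simp only [mem_range, Nat.lt_succ_of_le hj, if_true]
  split_ifs <;> ring

theorem site_Inv (q : ℕ → ℝ) (z : ℝ) (K : ℕ) (hpos : ∀ k, k ≤ K → 0 < q k)
    (hlc : ∀ k, k + 2 ≤ K → q k * q (k + 2) ≤ q (k + 1) ^ 2) :
    (Sys.ofJet (siteJet q z K)).Inv K ∧ (Sys.ofJet (siteJet q z K)).Pos K := by
  refine ⟨?_, ?_⟩
  · intro l k hk
    rcases k with _ | _ | j
    · rw [Sys.twist_E_zero, site_a_coeff q z K 0 hk, site_M_coeff q z K 0 hk,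
        site_T_coeff q z K 0 hk]
      simp
    · rw [Sys.twist_E_succ, site_a_coeff q z K 1 hk, site_M_coeff q z K 1 hk,
        site_T_coeff q z K 1 hk, site_a_coeff q z K 0 (by omega),
        site_M_coeff q z K 0 (by omega), coeff_X_mul_zero]
      simp only [le_refl, if_true]
      norm_num
      positivity
    · have hk1 : j + 1 ≤ K := by omega
      have hk0 : j ≤ K := by omega
      rw [Sys.twist_E_succ, site_a_coeff q z K (j + 1 + 1) hk, site_M_coeff q z K (j + 1 + 1) hk,
        site_T_coeff q z K (j + 1 + 1) hk, site_a_coeff q z K (j + 1) hk1,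
        site_M_coeff q z K (j + 1) hk1, coeff_X_mul, site_a_coeff q z K j hk0]
      have e1 : (1 : ℕ) ≤ j + 1 + 1 := by omega
      have e2 : (2 : ℕ) ≤ j + 1 + 1 := by omega
      have e3 : (1 : ℕ) ≤ j + 1 := by omega
      rw [if_pos e1, if_pos e2, if_pos e3]
      have hl := hlc j hk
      have key : (z * q (j + 1 + 1) - l * q (j + 1)) ^ 2
          + q (j + 1 + 1) * (-(z ^ 2 * q (j + 1 + 1)) + 2 * l * (z * q (j + 1)) - l ^ 2 * q j)
          = l ^ 2 * (q (j + 1) ^ 2 - q j * q (j + 2)) := by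
        ring
      rw [key]
      exact mul_nonneg (sq_nonneg l) (sub_nonneg.mpr hl)
  · intro k hk
    rw [site_a_coeff q z K k hk]
    exact hpos k hk

end Vale.Agent.Lib.P328.BL
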