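import Vale.Agent.Lib.P328.BL.Chain

/-!
# P328 / discrete Brascamp-Lieb on a slice: abstract systems

An abstract system is a triple of real polynomials `(a, M, T)`; the coefficient of `X ^ k` is the
value at level `k` (total weight, first-moment sum, and the sum of `z^2(S_1) - z(S)^2`).
Merging two systems on disjoint sets of sites is a product of 2-jets; the twist by `l` is the
multiplication by the 2-jet of `exp (- l X t)`, hence commutes with merging.
The invariant `Inv` asks the one-level inequality `E` for all twists.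
-/

open Polynomial Finset

namespace Vale.Agent.Lib.P328.BL

/-- abstract system: level weights `a`, first-moment sums `M`, second-order sums `T` -/
@[ext] structure Sys where
  a : ℝ[X]
  M : ℝ[X]
  T : ℝ[X]

namespace Sys

/-- merging two systems living on disjoint sets of sites -/
noncomputable def merge (S S' : Sys) : Sys :=
  ⟨S.a * S'.a, S.M * S'.a + S.a * S'.M, S.T * S'.a + S.a * S'.T - 2 * S.M * S'.M⟩

/-- the twist by the real parameter `l` -/
noncomputable def twist (l : ℝ) (S : Sys) : Sys :=
  ⟨S.a, S.M - C l * X * S.a, S.T + 2 * C l * X * S.M - C l ^ 2 * X ^ 2 * S.a⟩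

/-- the one-level inequality at level `k` -/
def E (S : Sys) (k : ℕ) : Prop := 0 ≤ (S.M.coeff k) ^ 2 + S.a.coeff k * S.T.coeff k

/-- the invariant up to level `K`: the one-level inequality for every twist -/
def Inv (S : Sys) (K : ℕ) : Prop := ∀ l : ℝ, ∀ k, k ≤ K → (S.twist l).E k

/-- positivity of the level weights up to level `K` -/
def Pos (S : Sys) (K : ℕ) : Prop := ∀ k, k ≤ K → 0 < S.a.coeff k

theorem twist_zero (S : Sys) : S.twist 0 = S := by
  ext1 <;> simp [twist]

theorem twist_twist (S : Sys) (l m : ℝ) : (S.twist l).twist m = S.twist (l + m) := by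
  ext1
  · rfl
  · simp only [twist, map_add]
    ring
  · simp only [twist, map_add]
    ring

theorem twist_merge (S S' : Sys) (l : ℝ) : (S.merge S').twist l = (S.twist l).merge S' := by
  ext1
  · rfl
  · simp only [twist, merge]
    ring
  · simp only [twist, merge]
    ring

theorem merge_comm (S S' : Sys) : S.merge S' = S'.merge S := by
  ext1 <;> simp only [merge] <;> ring

theorem Inv.E {S : Sys} {K : ℕ} (h : S.Inv K) : ∀ k, k ≤ K → S.E k := by
  intro k hk
  have := h 0 k hk
  rwa [twist_zero] at this

theorem Inv.twist {S : Sys} {K : ℕ} (h : S.Inv K) (l : ℝ) : (S.twist l).Inv K := by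
  intro m k hk
  rw [twist_twist]
  exact h (l + m) k hk

theorem twist_E_zero (S : Sys) (l : ℝ) :
    (S.twist l).E 0 ↔ 0 ≤ (S.M.coeff 0) ^ 2 + S.a.coeff 0 * S.T.coeff 0 := by
  simp [E, twist, mul_assoc]

theorem twist_E_succ (S : Sys) (l : ℝ) (k : ℕ) :
    (S.twist l).E (k + 1) ↔
      0 ≤ (S.M.coeff (k + 1) - l * S.a.coeff k) ^ 2
        + S.a.coeff (k + 1) * (S.T.coeff (k + 1) + 2 * l * S.M.coeff k
            - l ^ 2 * (X * S.a).coeff k) := by
  have h1 : (C l * X * S.a).coeff (k + 1) = l * S.a.coeff k := by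
    rw [mul_assoc, coeff_C_mul, coeff_X_mul]
  have h2 : (2 * C l * X * S.M).coeff (k + 1) = 2 * l * S.M.coeff k := by
    have e : 2 * C l * X * S.M = C (2 * l) * (X * S.M) := by
      rw [C_mul]
      simp only [map_ofNat]
      ring
    rw [e, coeff_C_mul, coeff_X_mul]
  have h3 : (C l ^ 2 * X ^ 2 * S.a).coeff (k + 1) = l ^ 2 * (X * S.a).coeff k := by
    have e : C l ^ 2 * X ^ 2 * S.a = C (l ^ 2) * (X * (X * S.a)) := by
      rw [C_pow]
      ring
    rw [e, coeff_C_mul, coeff_X_mul]
  simp only [E, twist, coeff_sub, coeff_add, h1, h2, h3]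

end Sys

end Vale.Agent.Lib.P328.BL
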